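import Vale.Agent.Lib.P088.Rigidity

/-!
# P088: the trivial connection is determined by data on one boundary patch

`M` is the closure of a bounded connected open set `Ω ⊆ ℝⁿ`, `Γ` a nonempty relatively open
subset of `∂Ω`.  The metrics `g₁, g₂` are arbitrary smooth metrics such that
`|g₁|^{1/2} g₁⁻¹ - |g₂|^{1/2} g₂⁻¹` is positive semidefinite in `Ω` (for instance `g₁ = g₂`), and
`A` is an arbitrary smooth unitary connection of arbitrary rank `N`.  If `(g₁, A)` and `(g₂, 0)`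
have the same data on `Γ`, then `A = U⁻¹ dU` in `Ω` with `U` unitary, smooth in `Ω`, continuous
on `Ω ∪ Γ` and equal to the identity on `Γ`.
-/

open scoped ContDiff
open Vale.Agent.Lib.P088

namespace Vale.Agent.Results.P088.PatchRigidity

theorem result {n N : ℕ} (Ω Γ : Set (Eu n)) (hΩo : IsOpen Ω) (hΩc : IsConnected Ω)
    (hΩb : Bornology.IsBounded Ω) (hΓ : ∃ O : Set (Eu n), IsOpen O ∧ Γ = O ∩ frontier Ω)
    (hΓne : Γ.Nonempty) (g₁ g₂ : Eu n → Matrix (Fin n) (Fin n) ℝ)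
    (hg₁ : IsSmoothMetric g₁) (hg₂ : IsSmoothMetric g₂)
    (hord : ∀ x ∈ Ω, (cond g₁ x - cond g₂ x).PosSemidef)
    (A : Eu n → Fin n → Matrix (Fin N) (Fin N) ℂ) (hA : IsUnitaryConn A)
    (hdata : SameData Ω Γ g₁ A g₂ (fun _ _ => 0)) :
    ∃ U : Eu n → Matrix (Fin N) (Fin N) ℂ,
      (∀ i j, ContDiffOn ℝ ∞ (fun x => U x i j) Ω) ∧
      (∀ i j, ContinuousOn (fun x => U x i j) (Ω ∪ Γ)) ∧
      (∀ x, U x ∈ Matrix.unitaryGroup (Fin N) ℂ) ∧
      (∀ x ∈ Γ, U x = 1) ∧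
      ∀ x ∈ Ω, ∀ k, A x k = (U x)⁻¹ * Matrix.of (fun i j => pd k (fun y => U y i j) x) :=
  rigidity Ω Γ hΩo hΩc hΩb hΓ hΓne g₁ g₂ hg₁ hg₂ hord A hA hdata

end Vale.Agent.Results.P088.PatchRigidity
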