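import Vale.Agent.Results.P088.FullDataReduction
import Vale.Agent.Results.P088.PatchRigidity

/-!
# P088: both results on pairs sharing their data with a trivial-connection pair

(1) data on one boundary patch `Γ`, ordered metrics: the connection is pure gauge;
(2) data on the whole boundary, two arbitrary smooth metrics: the connection is pure gauge and the
metrics alone have the same data.
-/

open scoped ContDiff
open Vale.Agent.Lib.P088

namespace Vale.Agent.Results.P088.A_Combined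

theorem result :
    (∀ {n N : ℕ} (Ω Γ : Set (Eu n)) (_hΩo : IsOpen Ω) (_hΩc : IsConnected Ω)
      (_hΩb : Bornology.IsBounded Ω) (_hΓ : ∃ O : Set (Eu n), IsOpen O ∧ Γ = O ∩ frontier Ω)
      (_hΓne : Γ.Nonempty) (g₁ g₂ : Eu n → Matrix (Fin n) (Fin n) ℝ)
      (_hg₁ : IsSmoothMetric g₁) (_hg₂ : IsSmoothMetric g₂)
      (_hord : ∀ x ∈ Ω, (cond g₁ x - cond g₂ x).PosSemidef)
      (A : Eu n → Fin n → Matrix (Fin N) (Fin N) ℂ) (_hA : IsUnitaryConn A)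
      (_hdata : SameData Ω Γ g₁ A g₂ (fun _ _ => 0)),
      ∃ U : Eu n → Matrix (Fin N) (Fin N) ℂ,
        (∀ i j, ContDiffOn ℝ ∞ (fun x => U x i j) Ω) ∧
        (∀ i j, ContinuousOn (fun x => U x i j) (Ω ∪ Γ)) ∧
        (∀ x, U x ∈ Matrix.unitaryGroup (Fin N) ℂ) ∧
        (∀ x ∈ Γ, U x = 1) ∧
        ∀ x ∈ Ω, ∀ k, A x k = (U x)⁻¹ * Matrix.of (fun i j => pd k (fun y => U y i j) x)) ∧
    (∀ {n N : ℕ} (Ω : Set (Eu n)) (_hΩo : IsOpen Ω) (_hΩc : IsConnected Ω)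
      (_hΩb : Bornology.IsBounded Ω) (_hfr : (frontier Ω).Nonempty)
      (g₁ g₂ : Eu n → Matrix (Fin n) (Fin n) ℝ)
      (_hg₁ : IsSmoothMetric g₁) (_hg₂ : IsSmoothMetric g₂)
      (A : Eu n → Fin n → Matrix (Fin N) (Fin N) ℂ) (_hA : IsUnitaryConn A)
      (_hdata : SameData Ω (frontier Ω) g₁ A g₂ (fun _ _ => 0)),
      ∃ U : Eu n → Matrix (Fin N) (Fin N) ℂ,
        (∀ i j, SmoothUpTo Ω (fun x => U x i j)) ∧
        (∀ x ∈ closure Ω, U x ∈ Matrix.unitaryGroup (Fin N) ℂ) ∧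
        (∀ x ∈ frontier Ω, U x = 1) ∧
        (∀ x ∈ Ω, ∀ k, A x k = (U x)⁻¹ * Matrix.of (fun i j => pd k (fun y => U y i j) x)) ∧
        SameData Ω (frontier Ω) g₁ (fun _ _ => (0 : Matrix (Fin N) (Fin N) ℂ)) g₂
          (fun _ _ => 0)) :=
  ⟨fun Ω Γ hΩo hΩc hΩb hΓ hΓne g₁ g₂ hg₁ hg₂ hord A hA hdata =>
      Vale.Agent.Results.P088.PatchRigidity.result Ω Γ hΩo hΩc hΩb hΓ hΓne g₁ g₂ hg₁ hg₂ hord A hA
        hdata,
    fun Ω hΩo hΩc hΩb hfr g₁ g₂ hg₁ hg₂ A hA hdata =>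
      Vale.Agent.Results.P088.FullDataReduction.result Ω hΩo hΩc hΩb hfr g₁ g₂ hg₁ hg₂ A hA hdata⟩

end Vale.Agent.Results.P088.A_Combined
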