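import Vale.Agent.Lib.P088.FullData

/-!
# P088: full data, two arbitrary smooth metrics, one trivial connection

If `(g₁, A)` and `(g₂, 0)` have the same data on the whole boundary of a bounded connected open
set `Ω ⊆ ℝⁿ`, with `g₁, g₂` arbitrary smooth metrics and `A` an arbitrary smooth unitary
connection, then `A = U⁻¹ dU` with `U` unitary, smooth up to the boundary and equal to the
identity on the boundary, and `(g₁, 0)`, `(g₂, 0)` have the same data: the joint question
for such pairs is reduced to the question for the metrics alone.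
-/

open scoped ContDiff
open Vale.Agent.Lib.P088

namespace Vale.Agent.Results.P088.FullDataReduction

theorem result {n N : ℕ} (Ω : Set (Eu n)) (hΩo : IsOpen Ω) (hΩc : IsConnected Ω)
    (hΩb : Bornology.IsBounded Ω) (hfr : (frontier Ω).Nonempty)
    (g₁ g₂ : Eu n → Matrix (Fin n) (Fin n) ℝ)
    (hg₁ : IsSmoothMetric g₁) (hg₂ : IsSmoothMetric g₂)
    (A : Eu n → Fin n → Matrix (Fin N) (Fin N) ℂ) (hA : IsUnitaryConn A)
    (hdata : SameData Ω (frontier Ω) g₁ A g₂ (fun _ _ => 0)) :
    ∃ U : Eu n → Matrix (Fin N) (Fin N) ℂ,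
      (∀ i j, SmoothUpTo Ω (fun x => U x i j)) ∧
      (∀ x ∈ closure Ω, U x ∈ Matrix.unitaryGroup (Fin N) ℂ) ∧
      (∀ x ∈ frontier Ω, U x = 1) ∧
      (∀ x ∈ Ω, ∀ k, A x k = (U x)⁻¹ * Matrix.of (fun i j => pd k (fun y => U y i j) x)) ∧
      SameData Ω (frontier Ω) g₁ (fun _ _ => (0 : Matrix (Fin N) (Fin N) ℂ)) g₂ (fun _ _ => 0) :=
  full_data_gauge Ω hΩo hΩc hΩb hfr g₁ g₂ hg₁ hg₂ A hA hdata

end Vale.Agent.Results.P088.FullDataReduction
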